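import Vale.Agent.P124.Core

namespace Vale.Agent.P124

open Filter Topology

theorem ulim_ball {F : Type} [NormedAddCommGroup F] [NormedSpace ℝ F] [FiniteDimensional ℝ F]
    (U : Ultrafilter ℕ) (a : ℕ → F) (M : ℝ) (h : ∀ n, ‖a n‖ ≤ M) :
    ∃ v, ‖v‖ ≤ M ∧ Tendsto a U (𝓝 v) := by
  haveI := FiniteDimensional.proper_real F
  obtain ⟨v, hv, hv'⟩ := (isCompact_closedBall (0 : F) M).ultrafilter_le_nhds (U.map a) (by
    rw [Ultrafilter.coe_map, le_principal_iff, mem_map]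
    exact Eventually.of_forall fun n => by simpa using h n)
  exact ⟨v, by simpa using hv, hv'⟩

theorem limit_case {X Y : Type} [NormedAddCommGroup X] [NormedSpace ℝ X] [CompleteSpace X]
    [NormedAddCommGroup Y] [NormedSpace ℝ Y] [CompleteSpace Y]
    (f : ℕ → X → Y) (hsurj : ∀ n, Function.Surjective (f n)) (c C : ℝ) (hc : 0 < c)
    (hlow : ∀ n x x', c * ‖x - x'‖ ≤ ‖f n x - f n x'‖)
    (hup : ∀ n x x', ‖f n x - f n x'‖ ≤ C * ‖x - x'‖) (h0 : ∀ n, f n 0 = 0)
    (F : Submodule ℝ Y) (hF : FiniteDimensional ℝ F) (P : Y →L[ℝ] F) (T : X →L[ℝ] Y)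
    (hT : ∀ (x : ℕ → X) (M : ℝ), (∀ n, ‖x n‖ ≤ M) →
      Tendsto (fun n => f n (x n) - (P (f n (x n)) : Y) - T (x n)) atTop (𝓝 0)) :
    Nonempty (X ≃L[ℝ] Y) := by
  let U : Ultrafilter ℕ := hyperfilter ℕ
  have hU : (U : Filter ℕ) ≤ atTop := by
    rw [← Nat.cofinite_eq_atTop]
    exact hyperfilter_le_cofinite
  have hb : ∀ n x, ‖P (f n x)‖ ≤ ‖P‖ * (|C| * ‖x‖) := by
    intro n x
    refine (P.le_opNorm _).trans (mul_le_mul_of_nonneg_left ?_ (norm_nonneg _))
    have := hup n x 0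
    rw [h0, sub_zero, sub_zero] at this
    exact this.trans (mul_le_mul_of_nonneg_right (le_abs_self C) (norm_nonneg _))
  choose p hp hp' using fun x => ulim_ball U (fun n => P (f n x)) _ (fun n => hb n x)
  let g : X → Y := fun x => T x + p x
  have hg : ∀ x, Tendsto (fun n => f n x) U (𝓝 (g x)) := by
    intro x
    have h1 := (hT (fun _ => x) ‖x‖ (fun _ => le_rfl)).mono_left hU
    have h2 : Tendsto (fun n => (P (f n x) : Y)) U (𝓝 (p x : Y)) :=
      (continuous_subtype_val.tendsto _).comp (hp' x)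
    have h3 := (h1.add h2).add_const (T x)
    simp only [zero_add] at h3
    rw [add_comm] at h3
    refine h3.congr fun n => ?_
    abel
  have glow : ∀ x x', c * ‖x - x'‖ ≤ ‖g x - g x'‖ := fun x x' =>
    ge_of_tendsto ((hg x).sub (hg x')).norm (Eventually.of_forall fun n => hlow n x x')
  have gup : ∀ x x', ‖g x - g x'‖ ≤ C * ‖x - x'‖ := fun x x' =>
    le_of_tendsto ((hg x).sub (hg x')).norm (Eventually.of_forall fun n => hup n x x')
  have hL : LipschitzWith C.toNNReal g :=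
    LipschitzWith.of_dist_le' fun x x' => by simpa [dist_eq_norm] using gup x x'
  have hA : AntilipschitzWith (c⁻¹).toNNReal g :=
    AntilipschitzWith.of_le_mul_dist fun x x' => by
      rw [Real.coe_toNNReal _ (inv_pos.2 hc).le, dist_eq_norm, dist_eq_norm,
        le_inv_mul_iff₀ hc]
      exact glow x x'
  have hE := hA.isClosedEmbedding hL.uniformContinuous
  refine core g ⟨hA.injective, fun y => ?_⟩ c C hc glow gup F hF ?_
  · choose x hx using fun n => hsurj n y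
    have hxb : ∀ n, ‖x n‖ ≤ c⁻¹ * ‖y‖ := by
      intro n
      have := hlow n (x n) 0
      rw [h0, sub_zero, sub_zero, hx] at this
      exact (le_inv_mul_iff₀ hc).2 this
    have h1 := (hT x _ hxb).mono_left hU
    simp only [hx] at h1
    obtain ⟨v, -, hv⟩ := ulim_ball U (fun n => p (x n)) (‖P‖ * (|C| * (c⁻¹ * ‖y‖))) (fun n =>
      (hp (x n)).trans (mul_le_mul_of_nonneg_left
        (mul_le_mul_of_nonneg_left (hxb n) (abs_nonneg C)) P.opNorm_nonneg))
    have h2 : Tendsto (fun n => (p (x n) : Y)) U (𝓝 (v : Y)) :=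
      (continuous_subtype_val.tendsto _).comp hv
    have h3 : Tendsto (fun n => g (x n)) U (𝓝 ((v : Y) - 0 + (y - P y))) := by
      refine ((h2.sub h1).add_const (y - (P y : Y))).congr fun n => ?_
      simp only [g]
      abel
    obtain ⟨z, hz⟩ := hE.isClosed_range.mem_of_tendsto h3
      (Eventually.of_forall fun n => ⟨x n, rfl⟩)
    rw [← hz] at h3
    have h4 : Tendsto x U (𝓝 z) := hE.isInducing.tendsto_nhds_iff.2 h3
    refine ⟨z, ?_⟩
    have h5 : Tendsto (fun n => ‖f n z - y‖) U (𝓝 ‖g z - y‖) := ((hg z).sub_const y).norm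
    have h6 : Tendsto (fun n => C * ‖z - x n‖) U (𝓝 (C * ‖z - z‖)) :=
      ((h4.const_sub z).norm).const_mul C
    have h7 := le_of_tendsto_of_tendsto' h5 h6 (fun n => by
      have := hup n z (x n)
      rwa [hx] at this)
    rw [sub_self, norm_zero, mul_zero] at h7
    exact sub_eq_zero.1 (norm_le_zero_iff.1 h7)
  · intro x x'
    have : g (x + x') - g x - g x' = ((p (x + x') - p x - p x' : F) : Y) := by
      simp only [g, map_add, Submodule.coe_sub]
      abel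
    rw [this]
    exact Submodule.coe_mem _

theorem frechet_mod {X Y : Type} [NormedAddCommGroup X] [NormedSpace ℝ X] [CompleteSpace X]
    [NormedAddCommGroup Y] [NormedSpace ℝ Y] [CompleteSpace Y]
    (f : X → Y) (hbij : Function.Bijective f) (c C : ℝ) (hc : 0 < c)
    (hlow : ∀ x x', c * ‖x - x'‖ ≤ ‖f x - f x'‖) (hup : ∀ x x', ‖f x - f x'‖ ≤ C * ‖x - x'‖)
    (F : Submodule ℝ Y) (hF : FiniteDimensional ℝ F) (x₀ : X) (T : X →L[ℝ] Y)
    (hdiff : ∀ ε > 0, ∃ δ > 0, ∀ h : X, ‖h‖ < δ →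
      ∃ v ∈ F, ‖f (x₀ + h) - f x₀ - T h - v‖ ≤ ε * ‖h‖) :
    Nonempty (X ≃L[ℝ] Y) := by
  obtain ⟨P, hP⟩ := Submodule.ClosedComplemented.of_finiteDimensional F
  let Q : Y →L[ℝ] Y := ContinuousLinearMap.id ℝ Y - F.subtypeL.comp P
  have hQ : ∀ y, Q y = y - (P y : Y) := fun y => rfl
  have hQF : ∀ y ∈ F, Q y = 0 := by
    intro y h
    rw [hQ, hP ⟨y, h⟩, sub_self]
  let t : ℕ → ℝ := fun n => (n : ℝ) + 1
  have ht : ∀ n, 0 < t n := fun n => by positivity
  let fn : ℕ → X → Y := fun n x => t n • (f (x₀ + (t n)⁻¹ • x) - f x₀)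
  have hfd : ∀ n x x', ‖fn n x - fn n x'‖ =
      t n * ‖f (x₀ + (t n)⁻¹ • x) - f (x₀ + (t n)⁻¹ • x')‖ := by
    intro n x x'
    simp only [fn]
    rw [← smul_sub, sub_sub_sub_cancel_right, norm_smul, Real.norm_of_nonneg (ht n).le]
  have hxd : ∀ n (x x' : X), ‖(x₀ + (t n)⁻¹ • x) - (x₀ + (t n)⁻¹ • x')‖ = (t n)⁻¹ * ‖x - x'‖ := by
    intro n x x'
    rw [add_sub_add_left_eq_sub, ← smul_sub, norm_smul, Real.norm_of_nonneg (inv_pos.2 (ht n)).le]
  refine limit_case fn ?_ c C hc ?_ ?_ ?_ F hF P (Q.comp T) ?_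
  · intro n y
    obtain ⟨x, hx⟩ := hbij.2 (f x₀ + (t n)⁻¹ • y)
    refine ⟨t n • (x - x₀), ?_⟩
    simp only [fn]
    rw [inv_smul_smul₀ (ht n).ne', add_sub_cancel, hx, add_sub_cancel_left,
      smul_inv_smul₀ (ht n).ne']
  · intro n x x'
    have := mul_le_mul_of_nonneg_left (hlow (x₀ + (t n)⁻¹ • x) (x₀ + (t n)⁻¹ • x')) (ht n).le
    rw [hxd, ← hfd] at this
    refine le_of_eq_of_le ?_ this
    have := (ht n).ne'
    field_simp
  · intro n x x'
    have := mul_le_mul_of_nonneg_left (hup (x₀ + (t n)⁻¹ • x) (x₀ + (t n)⁻¹ • x')) (ht n).le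
    rw [hxd, ← hfd] at this
    refine le_of_le_of_eq this ?_
    have := (ht n).ne'
    field_simp
  · intro n
    simp [fn]
  · intro x M hM
    have hM0 : 0 ≤ M := (norm_nonneg _).trans (hM 0)
    rw [Metric.tendsto_atTop]
    intro ε hε
    have hK : 0 < (‖Q‖ + 1) * (M + 1) := by positivity
    obtain ⟨δ, hδ, h⟩ := hdiff (ε / ((‖Q‖ + 1) * (M + 1))) (div_pos hε hK)
    obtain ⟨N, hN⟩ := exists_nat_gt (M / δ)
    refine ⟨N, fun n hn => ?_⟩
    have hn' : (N : ℝ) ≤ n := by exact_mod_cast hn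
    have hsm : ‖(t n)⁻¹ • x n‖ = (t n)⁻¹ * ‖x n‖ := by
      rw [norm_smul, Real.norm_of_nonneg (inv_pos.2 (ht n)).le]
    obtain ⟨v, hv, hv'⟩ := h ((t n)⁻¹ • x n) (by
      rw [hsm, inv_mul_lt_iff₀ (ht n)]
      rw [div_lt_iff₀ hδ] at hN
      have := hM n
      simp only [t]
      nlinarith)
    have key : fn n (x n) - (P (fn n (x n)) : Y) - (Q.comp T) (x n) =
        t n • Q (f (x₀ + (t n)⁻¹ • x n) - f x₀ - T ((t n)⁻¹ • x n) - v) := by
      rw [← hQ, map_sub Q _ v, hQF v hv, sub_zero, map_sub Q _ (T _), smul_sub, ← map_smul,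
        ← map_smul, ← map_smul T, smul_inv_smul₀ (ht n).ne']
      rfl
    rw [dist_zero_right, key, norm_smul, Real.norm_of_nonneg (ht n).le]
    have h1 := (Q.le_opNorm _).trans (mul_le_mul_of_nonneg_left hv' (norm_nonneg Q))
    rw [hsm] at h1
    have h2 := mul_le_mul_of_nonneg_left h1 (ht n).le
    refine h2.trans_lt ?_
    have h3 : t n * (‖Q‖ * (ε / ((‖Q‖ + 1) * (M + 1)) * ((t n)⁻¹ * ‖x n‖))) =
        ε * (‖Q‖ * ‖x n‖ / ((‖Q‖ + 1) * (M + 1))) := by
      have := (ht n).ne'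
      field_simp
    rw [h3]
    refine mul_lt_of_lt_one_right hε ((div_lt_one hK).2 ?_)
    have := hM n
    have := norm_nonneg Q
    have := norm_nonneg (x n)
    nlinarith

end Vale.Agent.P124
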